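import Vale.Agent.P103.Dyn

namespace Vale.Agent.Results.P103.Counterexample

open Vale.Agent.P103
open scoped Manifold ContDiff

/-- A `C^1` self-map of a closed manifold (in the proof `S^1 × S^2 × S^5`) with zero topological
entropy whose action on real singular homology in degree two has the eigenvalue `2`. -/
theorem result :
    ∃ (E : Type) (_ : NormedAddCommGroup E) (_ : NormedSpace ℝ E) (_ : FiniteDimensional ℝ E)
      (M : Type) (_ : MetricSpace M) (_ : ChartedSpace E M),
      IsManifold 𝓘(ℝ, E) ∞ M ∧ CompactSpace M ∧ Nonempty M ∧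
      ∃ f : C(M, M), ContMDiff 𝓘(ℝ, E) 𝓘(ℝ, E) 1 f ∧ htop f = 0 ∧
        ∃ x : (Hom 2).obj (TopCat.of M), x ≠ 0 ∧
          ((Hom 2).map (TopCat.ofHom f)).hom x = (2 : ℝ) • x := by
  refine ⟨EuclideanSpace ℝ (Fin 1) × EuclideanSpace ℝ (Fin 2) × EuclideanSpace ℝ (Fin 5),
    inferInstance, inferInstance, inferInstance, MM, inferInstance,
    (inferInstance : ChartedSpace (ModelProd _ (ModelProd _ _)) MM), ?_, inferInstance,
    ⟨jj (toS (mk3 0 1) (mk3_ne fun _ => one_ne_zero))⟩, fC, ?_, htop_ff, exists_eigen⟩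
  · rw [modelWithCornersSelf_prod, modelWithCornersSelf_prod]
    exact (inferInstance : IsManifold ((𝓡 1).prod ((𝓡 2).prod (𝓡 5))) ∞ MM)
  · rw [modelWithCornersSelf_prod, modelWithCornersSelf_prod]
    exact ff_smooth

end Vale.Agent.Results.P103.Counterexample
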